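import Vale.Agent.Lib.P121.Main

/-!
# P121: absolutely continuous densities without an optimal Monge plan

For every dimension `d ≥ 2` (in particular `d = 3`) there is a compactly supported probability
measure `μ` on `ℝ^d` with bounded density and finite three-particle Coulomb transport value
for which no Monge plan is optimal.
-/

open MeasureTheory
open scoped ENNReal NNReal

namespace Vale.Agent.Results.P121.NoOptimalMonge

/-- The three-particle Coulomb cost on `ℝ^d`, with value `∞` as soon as two points coincide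
(the inverse is taken in `[0, ∞]`). -/
noncomputable def coulombCost {d : ℕ} (x y z : EuclideanSpace ℝ (Fin d)) : ℝ≥0∞ :=
  (edist x y)⁻¹ + (edist x z)⁻¹ + (edist y z)⁻¹

/-- `π ∈ Π(μ, μ, μ)`: all three coordinate marginals of `π` are equal to `μ`. -/
def IsCoupling {d : ℕ} (μ : Measure (EuclideanSpace ℝ (Fin d)))
    (π : Measure (EuclideanSpace ℝ (Fin d) × EuclideanSpace ℝ (Fin d) ×
      EuclideanSpace ℝ (Fin d))) : Prop :=
  π.map (fun p => p.1) = μ ∧ π.map (fun p => p.2.1) = μ ∧ π.map (fun p => p.2.2) = μ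

/-- The Kantorovich value: the infimum of the cost over all couplings. -/
noncomputable def kantorovichValue {d : ℕ} (μ : Measure (EuclideanSpace ℝ (Fin d))) : ℝ≥0∞ :=
  ⨅ (π : Measure (EuclideanSpace ℝ (Fin d) × EuclideanSpace ℝ (Fin d) ×
      EuclideanSpace ℝ (Fin d))) (_ : IsCoupling μ π),
    ∫⁻ p, coulombCost p.1 p.2.1 p.2.2 ∂π

/-- `(id, T₂, T₃)` pushes `μ` to an optimal Monge plan: `T₂` and `T₃` are Borel maps which
preserve `μ`, and the cost of the plan equals the Kantorovich value. -/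
def IsOptimalMongePair {d : ℕ} (μ : Measure (EuclideanSpace ℝ (Fin d)))
    (T₂ T₃ : EuclideanSpace ℝ (Fin d) → EuclideanSpace ℝ (Fin d)) : Prop :=
  Measurable T₂ ∧ Measurable T₃ ∧ μ.map T₂ = μ ∧ μ.map T₃ = μ ∧
    ∫⁻ x, coulombCost x (T₂ x) (T₃ x) ∂μ = kantorovichValue μ

/-- In every dimension `d ≥ 2` there is a compactly supported probability measure with bounded
density and finite Kantorovich value which admits no optimal Monge plan. -/
theorem result : ∀ d : ℕ, 2 ≤ d → ∃ μ : Measure (EuclideanSpace ℝ (Fin d)),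
    IsProbabilityMeasure μ ∧ μ ≪ volume ∧ (∃ K : ℝ≥0, μ ≤ K • volume) ∧
    μ (Metric.closedBall 0 2)ᶜ = 0 ∧ kantorovichValue μ < ∞ ∧
    ¬ ∃ T₂ T₃ : EuclideanSpace ℝ (Fin d) → EuclideanSpace ℝ (Fin d),
      IsOptimalMongePair μ T₂ T₃ := by
  intro d hd
  classical
  let i₀ : Fin d := ⟨0, by omega⟩
  let i₁ : Fin d := ⟨1, by omega⟩
  have hne : i₀ ≠ i₁ := by
    intro h
    have := congrArg Fin.val h
    simp [i₀, i₁] at this
  let b : EuclideanSpace ℝ (Fin d) := EuclideanSpace.single i₀ 1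
  let R : EuclideanSpace ℝ (Fin d) ≃ₗᵢ[ℝ] EuclideanSpace ℝ (Fin d) :=
    LinearIsometryEquiv.piLpCongrLeft 2 ℝ ℝ (Equiv.swap i₀ i₁)
  have hb : ‖b‖ = 1 := by simp [b]
  have hR : ∀ x, R (R x) = x := by
    intro x
    ext j
    simp [R]
  have hRb : R b = EuclideanSpace.single i₁ 1 := by
    simp [R, b]
  have hperp : inner ℝ b (R b) = 0 := by
    rw [hRb]
    simp only [b]
    rw [EuclideanSpace.inner_single_left]
    simp [hne]
  obtain ⟨μ, h1, ⟨K, hK⟩, h3, v, hv, ⟨π, hπ1, hπ2, hπ3, hπ4⟩, hT⟩ :=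
    Vale.Agent.Lib.P121.main (volume : Measure (EuclideanSpace ℝ (Fin d))) b R hb hR hperp
  have hle : kantorovichValue μ ≤ v := by
    rw [← hπ4]
    exact iInf₂_le π ⟨hπ1, hπ2, hπ3⟩
  refine ⟨μ, h1, ?_, ⟨K, hK⟩, h3, lt_of_le_of_lt hle hv, ?_⟩
  · exact Measure.absolutelyContinuous_of_le_smul (c := (K : ℝ≥0∞)) hK
  · rintro ⟨T₂, T₃, m₂, m₃, p₂, p₃, hcost⟩
    have h4 := hT T₂ T₃ m₂ m₃ p₂ p₃
    have h5 : ∫⁻ x, Vale.Agent.Lib.P121.Setup.cE x (T₂ x) (T₃ x) ∂μ = kantorovichValue μ := hcost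
    rw [h5] at h4
    exact absurd h4 (not_lt.mpr hle)

end Vale.Agent.Results.P121.NoOptimalMonge
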